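import Vale.Agent.Lib.P068.FiniteIntersection

/-!
# From finite sets to bounded common independent sets
-/

namespace Vale.Agent.Lib.P068

open Set Matroid

variable {α : Type*}

/-- Spanning form on a finite set `F`: if `J ⊆ F` is a common independent set of maximum size,
then some `A ⊆ J` has every element of `F` (lying in both ground sets) in the `M`-closure of `A`
or in the `N`-closure of `J \ A`. -/
theorem exists_partition_of_finite (M N : Matroid α) {F J : Set α} (hF : F.Finite)
    (hJF : J ⊆ F) (hJM : M.Indep J) (hJN : N.Indep J)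
    (hmax : ∀ I : Set α, M.Indep I → N.Indep I → I.encard ≤ J.encard) :
    ∃ A : Set α, A ⊆ J ∧ ∀ x ∈ F, x ∈ M.E → x ∈ N.E → x ∈ M.closure A ∪ N.closure (J \ A) := by
  obtain ⟨I, U, hIF, hUF, hIM, hIN, hv⟩ :=
    exists_indep_rank_le M N F.ncard F ∅ hF rfl finite_empty (disjoint_empty F)
      M.empty_indep N.empty_indep
  simp only [union_empty, encard_empty, mul_zero, add_zero] at hIM hIN hv
  have hJfin : J.Finite := hF.subset hJF
  have h1 : (J ∩ U).encard ≤ M.eRk U :=
    (hJM.subset inter_subset_left).encard_le_eRk_of_subset inter_subset_right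
  have h2 : (J \ U).encard ≤ N.eRk (F \ U) :=
    (hJN.subset sdiff_subset).encard_le_eRk_of_subset (sdiff_subset_sdiff_left hJF)
  have h3 : (J \ U).encard + (J ∩ U).encard = J.encard := encard_sdiff_add_encard_inter J U
  have h4 : M.eRk U + N.eRk (F \ U) ≤ J.encard := hv.trans (hmax I hIM hIN)
  obtain ⟨a, ha⟩ := eRk_fin M (hF.subset hUF)
  obtain ⟨b, hb⟩ := eRk_fin N (hF.sdiff (t := U))
  obtain ⟨c, hc⟩ := encard_fin (hJfin.subset (inter_subset_left : J ∩ U ⊆ J))
  obtain ⟨d, hd⟩ := encard_fin (hJfin.subset (sdiff_subset : J \ U ⊆ J))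
  obtain ⟨j, hj⟩ := encard_fin hJfin
  rw [hc, ha] at h1
  rw [hd, hb] at h2
  rw [hd, hc, hj] at h3
  rw [ha, hb, hj] at h4
  have h1' : c ≤ a := by exact_mod_cast h1
  have h2' : d ≤ b := by exact_mod_cast h2
  have h3' : d + c = j := by exact_mod_cast h3
  have h4' : a + b ≤ j := by exact_mod_cast h4
  have hac : a = c := by omega
  have hbd : b = d := by omega
  -- `J ∩ U` is a basis of `U` in `M`, and `J \ U` is a basis of `F \ U` in `N`
  have hbM : M.IsBasis' (J ∩ U) U := by
    apply (hJM.subset inter_subset_left).isBasis'_of_eRk_ge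
      (hJfin.subset inter_subset_left) inter_subset_right
    rw [(hJM.subset inter_subset_left).eRk_eq_encard, ha, hc, hac]
  have hbN : N.IsBasis' (J \ U) (F \ U) := by
    apply (hJN.subset sdiff_subset).isBasis'_of_eRk_ge
      (hJfin.subset sdiff_subset) (sdiff_subset_sdiff_left hJF)
    rw [(hJN.subset sdiff_subset).eRk_eq_encard, hb, hd, hbd]
  refine ⟨J ∩ U, inter_subset_left, ?_⟩
  intro x hxF hxM hxN
  have hJU : J \ (J ∩ U) = J \ U := by
    ext y; simp only [mem_sdiff, mem_inter_iff]; tauto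
  rw [hJU]
  by_cases hxU : x ∈ U
  · left
    rw [hbM.closure_eq_closure]
    exact M.inter_ground_subset_closure U ⟨hxU, hxM⟩
  · right
    rw [hbN.closure_eq_closure]
    exact N.inter_ground_subset_closure (F \ U) ⟨⟨hxF, hxU⟩, hxN⟩

/-- A common independent set of maximum size exists when the sizes are bounded. -/
lemma exists_max_common_indep (M N : Matroid α) :
    ∀ k : ℕ, (∀ I : Set α, M.Indep I → N.Indep I → I.encard ≤ k) →
      ∃ J : Set α, M.Indep J ∧ N.Indep J ∧ J.Finite ∧
        ∀ I : Set α, M.Indep I → N.Indep I → I.encard ≤ J.encard := by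
  intro k
  induction k with
  | zero =>
    intro h
    refine ⟨∅, M.empty_indep, N.empty_indep, finite_empty, fun I hIM hIN => ?_⟩
    simpa using h I hIM hIN
  | succ k ih =>
    intro h
    by_cases hk : ∀ I : Set α, M.Indep I → N.Indep I → I.encard ≤ k
    · exact ih hk
    · push Not at hk
      obtain ⟨I0, hIM, hIN, hlt⟩ := hk
      have hle := h I0 hIM hIN
      have heq : I0.encard = (k + 1 : ℕ) :=
        le_antisymm hle (by exact_mod_cast Order.add_one_le_of_lt hlt)
      refine ⟨I0, hIM, hIN, finite_of_encard_le_coe hle, fun I hI1 hI2 => ?_⟩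
      rw [heq]
      exact h I hI1 hI2

/-- **Intersection for pairs with bounded common independent sets.** -/
theorem intersection_of_bounded (M N : Matroid α) (hE : M.E = N.E)
    (hb : ∃ k : ℕ, ∀ I : Set α, M.Indep I → N.Indep I → I.encard ≤ k) :
    ∃ JM JN : Set α, Disjoint JM JN ∧ M.Indep (JM ∪ JN) ∧ N.Indep (JM ∪ JN) ∧
      M.closure JM ∪ N.closure JN = M.E := by
  obtain ⟨k, hk⟩ := hb
  obtain ⟨J, hJM, hJN, hJfin, hmax⟩ := exists_max_common_indep M N k hk
  have key : ∃ A : Set α, A ⊆ J ∧ ∀ x ∈ M.E, x ∈ M.closure A ∪ N.closure (J \ A) := by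
    by_contra hcon
    push Not at hcon
    obtain ⟨x0, -, -⟩ := hcon ∅ (empty_subset J)
    have : Nonempty α := ⟨x0⟩
    choose! x hxE hxn using hcon
    have hFfin : (J ∪ x '' {A | A ⊆ J}).Finite := hJfin.union (hJfin.finite_subsets.image x)
    obtain ⟨A, hAJ, hA⟩ :=
      exists_partition_of_finite M N hFfin subset_union_left hJM hJN hmax
    have hxF : x A ∈ J ∪ x '' {A | A ⊆ J} := Or.inr ⟨A, hAJ, rfl⟩
    exact hxn A hAJ (hA (x A) hxF (hxE A hAJ) (hE ▸ hxE A hAJ))
  obtain ⟨A, hAJ, hA⟩ := key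
  have hun : A ∪ J \ A = J := union_sdiff_cancel hAJ
  refine ⟨A, J \ A, disjoint_sdiff_right, by rwa [hun], by rwa [hun], ?_⟩
  apply Subset.antisymm
  · apply union_subset (M.closure_subset_ground A)
    rw [hE]
    exact N.closure_subset_ground (J \ A)
  · exact fun x hx => hA x hx

/-- Special case: one of the two matroids has finite rank. -/
theorem intersection_of_rankFinite (M N : Matroid α) (hE : M.E = N.E)
    (h : M.RankFinite ∨ N.RankFinite) :
    ∃ JM JN : Set α, Disjoint JM JN ∧ M.Indep (JM ∪ JN) ∧ N.Indep (JM ∪ JN) ∧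
      M.closure JM ∪ N.closure JN = M.E := by
  apply intersection_of_bounded M N hE
  rcases h with h | h
  · obtain ⟨k, hk⟩ := ENat.ne_top_iff_exists.1 (M.eRank_ne_top_iff.2 h)
    exact ⟨k, fun I hIM _ => hk ▸ hIM.encard_le_eRank⟩
  · obtain ⟨k, hk⟩ := ENat.ne_top_iff_exists.1 (N.eRank_ne_top_iff.2 h)
    exact ⟨k, fun I _ hIN => hk ▸ hIN.encard_le_eRank⟩

end Vale.Agent.Lib.P068
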