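import Vale.Agent.Lib.P068.Bounded

/-!
# Duality for the intersection property, and pairs with a matroid of finite corank

For matroids `M`, `N` on a common ground set, the pair `(M, N)` satisfies intersection if and
only if the pair of duals `(M✶, N✶)` does.  Together with the bounded case this gives
intersection for every pair in which one matroid has finite corank, and more generally for
every pair in which one matroid has finite rank after deleting its coloops or finite corank
after deleting its loops.
-/

namespace Vale.Agent.Lib.P068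

open Set Matroid

variable {α : Type*}

/-- Let `B` be a base of `N`, `J ⊆ B` and `P` a set disjoint from `J` such that every element
outside `P` lies in the closure of `J`.  Then `P` is spanned by `P \ B` in the dual. -/
lemma subset_dual_closure_diff (N : Matroid α) {B P J : Set α} (hB : N.IsBase B)
    (hP : P ⊆ N.E) (hJB : J ⊆ B) (hJP : Disjoint J P)
    (hcov : N.E \ P ⊆ N.closure J) :
    P ⊆ N✶.closure (P \ B) := by
  intro e heP
  have heE : e ∈ N.E := hP heP
  by_cases heB : e ∈ B
  · have hX : N✶.Indep (P \ B) :=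
      hB.compl_isBase_dual.indep.subset (sdiff_subset_sdiff_left hP)
    have heX : e ∉ P \ B := fun h => h.2 heB
    rw [hX.mem_closure_iff_of_notMem heX, dep_iff]
    refine ⟨fun hind => ?_, ?_⟩
    · have hco : N.Coindep (insert e (P \ B)) := hind
      have hsp : N.Spanning (N.E \ insert e (P \ B)) := hco.compl_spanning
      have hsub : N.E \ insert e (P \ B) ⊆ N.closure (B \ {e}) := by
        intro x hx
        obtain ⟨hxE, hxn⟩ := hx
        have hxe : x ≠ e := fun h => hxn (h ▸ mem_insert _ _)
        by_cases hxB : x ∈ B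
        · exact N.mem_closure_of_mem' ⟨hxB, hxe⟩ hxE
        · have hxP : x ∉ P := fun h => hxn (mem_insert_of_mem _ ⟨h, hxB⟩)
          have hx' : x ∈ N.closure J := hcov ⟨hxE, hxP⟩
          refine N.closure_subset_closure ?_ hx'
          intro y hy
          refine ⟨hJB hy, fun hye => ?_⟩
          have hye' : y = e := hye
          exact hJP.le_bot ⟨hy, hye' ▸ heP⟩
      have h1 : N.closure (N.E \ insert e (P \ B)) ⊆ N.closure (B \ {e}) :=
        N.closure_subset_closure_of_subset_closure hsub
      rw [hsp.closure_eq] at h1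
      exact hB.indep.notMem_closure_sdiff_of_mem heB (h1 heE)
    · intro x hx
      rcases hx with rfl | hx
      · exact heE
      · exact hP hx.1
  · exact N✶.mem_closure_of_mem' ⟨heP, heB⟩ heE

/-- **Intersection passes to the pair of duals.** -/
theorem intersection_dual (M N : Matroid α) (hE : M.E = N.E)
    (h : ∃ JM JN : Set α, Disjoint JM JN ∧ M.Indep (JM ∪ JN) ∧ N.Indep (JM ∪ JN) ∧
      M.closure JM ∪ N.closure JN = M.E) :
    ∃ KM KN : Set α, Disjoint KM KN ∧ M✶.Indep (KM ∪ KN) ∧ N✶.Indep (KM ∪ KN) ∧
      M✶.closure KM ∪ N✶.closure KN = M.E := by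
  obtain ⟨JM, JN, hdisj, hJM, hJN, hcov⟩ := h
  obtain ⟨BM, hBM, hJBM⟩ := hJM.exists_isBase_superset
  obtain ⟨BN, hBN, hJBN⟩ := hJN.exists_isBase_superset
  have hJMi : M.Indep JM := hJM.subset subset_union_left
  have hJNi : N.Indep JN := hJN.subset subset_union_right
  have hPE : M.closure JM ⊆ M.E := M.closure_subset_ground JM
  -- elements outside `P = cl_M(JM)` lie in `cl_N(JN)`
  have hQN : M.E \ M.closure JM ⊆ N.closure JN := by
    intro x hx
    have hx' : x ∈ M.closure JM ∪ N.closure JN := by rw [hcov]; exact hx.1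
    exact hx'.resolve_left hx.2
  -- an element of a base containing `JM` that lies in `cl_M(JM)` lies in `JM`
  have hBMP : ∀ y ∈ BM, y ∈ M.closure JM → y ∈ JM := by
    intro y hyB hyP
    by_contra hyJ
    have hind : M.Indep (insert y JM) :=
      hBM.indep.subset (insert_subset hyB (subset_union_left.trans hJBM))
    exact ((hJMi.notMem_closure_iff_of_notMem hyJ (hBM.subset_ground hyB)).2 hind) hyP
  have hBNQ : ∀ y ∈ BN, y ∈ N.closure JN → y ∈ JN := by
    intro y hyB hyP
    by_contra hyJ
    have hind : N.Indep (insert y JN) :=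
      hBN.indep.subset (insert_subset hyB (subset_union_right.trans hJBN))
    exact ((hJNi.notMem_closure_iff_of_notMem hyJ (hBN.subset_ground hyB)).2 hind) hyP
  -- `JN` is disjoint from `P`
  have hJNP : Disjoint JN (M.closure JM) := by
    rw [disjoint_left]
    intro y hyN hyP
    have hyJM : y ∈ JM := hBMP y (hJBM (Or.inr hyN)) hyP
    exact hdisj.le_bot ⟨hyJM, hyN⟩
  refine ⟨(M.E \ M.closure JM) \ BM, M.closure JM \ BN, ?_, ?_, ?_, ?_⟩
  · rw [disjoint_left]
    intro x hx hx'
    exact hx.1.2 hx'.1
  · apply hBM.compl_isBase_dual.indep.subset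
    intro x hx
    rcases hx with ⟨hxQ, hxB⟩ | ⟨hxP, hxB⟩
    · exact ⟨hxQ.1, hxB⟩
    · exact ⟨hPE hxP, fun hxBM => hxB (hJBN (Or.inl (hBMP x hxBM hxP)))⟩
  · apply hBN.compl_isBase_dual.indep.subset
    intro x hx
    rcases hx with ⟨hxQ, hxB⟩ | ⟨hxP, hxB⟩
    · exact ⟨hE ▸ hxQ.1, fun hxBN => hxB (hJBM (Or.inr (hBNQ x hxBN (hQN hxQ))))⟩
    · exact ⟨hE ▸ hPE hxP, hxB⟩
  · apply Subset.antisymm
    · apply union_subset (M✶.closure_subset_ground _)
      have h2 := N✶.closure_subset_ground (M.closure JM \ BN)
      rw [dual_ground, ← hE] at h2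
      exact h2
    · intro x hx
      by_cases hxP : x ∈ M.closure JM
      · right
        have hPN : M.closure JM ⊆ N.E := hE ▸ hPE
        have hcovN : N.E \ M.closure JM ⊆ N.closure JN := by
          rw [← hE]; exact hQN
        exact subset_dual_closure_diff N hBN hPN (subset_union_right.trans hJBN) hJNP hcovN hxP
      · left
        have hJMQ : Disjoint JM (M.E \ M.closure JM) := by
          rw [disjoint_left]
          intro y hy hy'
          exact hy'.2 (M.subset_closure JM hJMi.subset_ground hy)
        have hcovM : M.E \ (M.E \ M.closure JM) ⊆ M.closure JM := by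
          intro y hy
          by_contra hyn
          exact hy.2 ⟨hy.1, hyn⟩
        exact subset_dual_closure_diff M hBM sdiff_subset (subset_union_left.trans hJBM) hJMQ
          hcovM ⟨hx, hxP⟩

/-- **Self-duality of the intersection property.** -/
theorem intersection_dual_iff (M N : Matroid α) (hE : M.E = N.E) :
    (∃ JM JN : Set α, Disjoint JM JN ∧ M.Indep (JM ∪ JN) ∧ N.Indep (JM ∪ JN) ∧
      M.closure JM ∪ N.closure JN = M.E) ↔
    ∃ KM KN : Set α, Disjoint KM KN ∧ M✶.Indep (KM ∪ KN) ∧ N✶.Indep (KM ∪ KN) ∧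
      M✶.closure KM ∪ N✶.closure KN = M.E := by
  constructor
  · exact intersection_dual M N hE
  · intro h
    have hE' : M✶.E = N✶.E := by simpa using hE
    have := intersection_dual M✶ N✶ hE' (by simpa using h)
    simpa using this

/-- Intersection when the common independent sets of the duals have bounded size. -/
theorem intersection_of_dual_bounded (M N : Matroid α) (hE : M.E = N.E)
    (hb : ∃ k : ℕ, ∀ I : Set α, M✶.Indep I → N✶.Indep I → I.encard ≤ k) :
    ∃ JM JN : Set α, Disjoint JM JN ∧ M.Indep (JM ∪ JN) ∧ N.Indep (JM ∪ JN) ∧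
      M.closure JM ∪ N.closure JN = M.E := by
  have hE' : M✶.E = N✶.E := by simpa using hE
  have h := intersection_of_bounded M✶ N✶ hE' hb
  exact (intersection_dual_iff M N hE).2 (by simpa using h)

/-- Intersection when one of the two matroids has finite corank. -/
theorem intersection_of_dual_rankFinite (M N : Matroid α) (hE : M.E = N.E)
    (h : M✶.RankFinite ∨ N✶.RankFinite) :
    ∃ JM JN : Set α, Disjoint JM JN ∧ M.Indep (JM ∪ JN) ∧ N.Indep (JM ∪ JN) ∧
      M.closure JM ∪ N.closure JN = M.E := by
  have hE' : M✶.E = N✶.E := by simpa using hE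
  have h' := intersection_of_rankFinite M✶ N✶ hE' h
  exact (intersection_dual_iff M N hE).2 (by simpa using h')

/-- The intersection property is symmetric in the two matroids. -/
theorem intersection_symm (M N : Matroid α) (hE : M.E = N.E)
    (h : ∃ JM JN : Set α, Disjoint JM JN ∧ M.Indep (JM ∪ JN) ∧ N.Indep (JM ∪ JN) ∧
      M.closure JM ∪ N.closure JN = M.E) :
    ∃ JN JM : Set α, Disjoint JN JM ∧ N.Indep (JN ∪ JM) ∧ M.Indep (JN ∪ JM) ∧
      N.closure JN ∪ M.closure JM = N.E := by
  obtain ⟨JM, JN, hd, hM, hN, hc⟩ := h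
  refine ⟨JN, JM, hd.symm, ?_, ?_, ?_⟩
  · rwa [union_comm]
  · rwa [union_comm]
  · rw [union_comm, hc, hE]

/-- Loops of `N` may be deleted from both matroids. -/
theorem intersection_of_delete_loops (M N : Matroid α) (hE : M.E = N.E) {L : Set α}
    (hL : L ⊆ N.loops)
    (h : ∃ JM JN : Set α, Disjoint JM JN ∧ (M ＼ L).Indep (JM ∪ JN) ∧ (N ＼ L).Indep (JM ∪ JN) ∧
      (M ＼ L).closure JM ∪ (N ＼ L).closure JN = (M ＼ L).E) :
    ∃ JM JN : Set α, Disjoint JM JN ∧ M.Indep (JM ∪ JN) ∧ N.Indep (JM ∪ JN) ∧
      M.closure JM ∪ N.closure JN = M.E := by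
  obtain ⟨JM, JN, hd, hM, hN, hc⟩ := h
  rw [delete_indep_iff] at hM hN
  have hJML : Disjoint JM L := hM.2.mono_left subset_union_left
  have hJNL : Disjoint JN L := hN.2.mono_left subset_union_right
  rw [delete_closure_eq_of_disjoint M hJML, delete_closure_eq_of_disjoint N hJNL,
    delete_ground] at hc
  refine ⟨JM, JN, hd, hM.1, hN.1, ?_⟩
  apply Subset.antisymm
  · apply union_subset (M.closure_subset_ground JM)
    rw [hE]
    exact N.closure_subset_ground JN
  · intro x hx
    by_cases hxL : x ∈ L
    · right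
      exact (isLoop_iff.2 (hL hxL)).mem_closure JN
    · have hx' : x ∈ M.closure JM \ L ∪ N.closure JN \ L := by
        rw [hc]; exact ⟨hx, hxL⟩
      rcases hx' with hx' | hx'
      · exact Or.inl hx'.1
      · exact Or.inr hx'.1

/-- Intersection when `N` has finite corank after deleting its loops. -/
theorem intersection_of_delete_loops_dual_rankFinite (M N : Matroid α) (hE : M.E = N.E)
    (h : (N ＼ N.loops)✶.RankFinite) :
    ∃ JM JN : Set α, Disjoint JM JN ∧ M.Indep (JM ∪ JN) ∧ N.Indep (JM ∪ JN) ∧
      M.closure JM ∪ N.closure JN = M.E := by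
  apply intersection_of_delete_loops M N hE (subset_refl N.loops)
  have hE' : (M ＼ N.loops).E = (N ＼ N.loops).E := by
    rw [delete_ground, delete_ground, hE]
  exact intersection_of_dual_rankFinite (M ＼ N.loops) (N ＼ N.loops) hE' (Or.inr h)

/-- Intersection when `N` has finite rank after deleting its coloops. -/
theorem intersection_of_delete_coloops_rankFinite (M N : Matroid α) (hE : M.E = N.E)
    (h : (N ＼ N.coloops).RankFinite) :
    ∃ JM JN : Set α, Disjoint JM JN ∧ M.Indep (JM ∪ JN) ∧ N.Indep (JM ∪ JN) ∧
      M.closure JM ∪ N.closure JN = M.E := by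
  have hE' : M✶.E = N✶.E := by simpa using hE
  have hE'' : (M✶ ＼ N.coloops).E = (N✶ ＼ N.coloops).E := by
    rw [delete_ground, delete_ground, hE']
  have hfin : (N✶ ＼ N.coloops)✶.RankFinite := by
    rw [dual_delete_dual, contract_eq_delete_of_subset_coloops (subset_refl _)]
    exact h
  have h1 := intersection_of_dual_rankFinite (M✶ ＼ N.coloops) (N✶ ＼ N.coloops) hE''
    (Or.inr hfin)
  have hL : N.coloops ⊆ N✶.loops := subset_refl _
  have h2 := intersection_of_delete_loops M✶ N✶ hE' hL h1
  exact (intersection_dual_iff M N hE).2 (by simpa using h2)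

end Vale.Agent.Lib.P068
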