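import Mathlib

/-!
# Matroid intersection for pairs with bounded common independent sets

`Matroid α` is Mathlib's type of (possibly infinite) matroids in the sense of
Bruhn, Diestel, Kriesell, Pendavingh and Wollan.

* `exists_indep_rank_le` : the rank min-max inequality of Edmonds on a finite set `F`,
  relative to a finite common independent set `S` that is kept aside (this plays the role
  of contraction), proved by induction on the size of `F` from submodularity of the rank.
* `exists_partition_of_finite` : the spanning form on a finite set.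
* `intersection_of_bounded` : if the common independent sets of `M` and `N` have bounded
  size, the pair satisfies intersection.
-/

namespace Vale.Agent.Lib.P068

open Set Matroid

variable {α : Type*}

/-- The rank of a finite set is a natural number. -/
lemma eRk_fin (M : Matroid α) {X : Set α} (hX : X.Finite) : ∃ n : ℕ, M.eRk X = n := by
  have h : M.eRk X ≠ ⊤ := ne_top_of_le_ne_top hX.encard_lt_top.ne (M.eRk_le_encard X)
  obtain ⟨n, hn⟩ := ENat.ne_top_iff_exists.1 h
  exact ⟨n, hn.symm⟩

/-- The size of a finite set is a natural number. -/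
lemma encard_fin {X : Set α} (hX : X.Finite) : ∃ n : ℕ, X.encard = n := by
  obtain ⟨n, hn⟩ := ENat.ne_top_iff_exists.1 hX.encard_lt_top.ne
  exact ⟨n, hn.symm⟩

/-- If `S` is independent and no element of `U` can be added to it, then the rank of
`U ∪ S` is at most the size of `S`. -/
lemma eRk_union_le_of_forall_not_indep (M : Matroid α) {S U : Set α} (hS : M.Indep S)
    (h : ∀ e ∈ U, ¬ M.Indep (insert e S)) : M.eRk (U ∪ S) ≤ S.encard := by
  have hb : M.IsBasis' S (U ∪ S) := by
    refine ⟨⟨hS, subset_union_right⟩, ?_⟩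
    rintro A ⟨hA, hAU⟩ hSA
    intro e heA
    by_contra heS
    have heU : e ∈ U := (hAU heA).resolve_right heS
    exact h e heU (hA.subset (insert_subset heA hSA))
  exact hb.eRk_eq_encard.le

/-- Edmonds' min-max inequality on a finite set `F`, relative to a finite common independent
set `S` disjoint from `F`: there are `I ⊆ F` with `I ∪ S` independent in both matroids and
`U ⊆ F` with `r_M(U ∪ S) + r_N((F \ U) ∪ S) ≤ |I| + 2|S|`. -/
theorem exists_indep_rank_le (M N : Matroid α) :
    ∀ (n : ℕ) (F S : Set α), F.Finite → F.ncard = n → S.Finite → Disjoint F S →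
      M.Indep S → N.Indep S →
      ∃ I U : Set α, I ⊆ F ∧ U ⊆ F ∧ M.Indep (I ∪ S) ∧ N.Indep (I ∪ S) ∧
        M.eRk (U ∪ S) + N.eRk ((F \ U) ∪ S) ≤ I.encard + 2 * S.encard := by
  intro n
  induction n with
  | zero =>
    intro F S hF hn hS hd hMS hNS
    have hF0 : F = ∅ := by rwa [Set.ncard_eq_zero hF] at hn
    subst hF0
    refine ⟨∅, ∅, subset_rfl, subset_rfl, by simpa using hMS, by simpa using hNS, ?_⟩
    simp only [empty_union, sdiff_empty, encard_empty, zero_add]
    rw [hMS.eRk_eq_encard, hNS.eRk_eq_encard, two_mul]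
  | succ n ih =>
    intro F S hF hn hS hd hMS hNS
    by_cases hex : ∃ e ∈ F, M.Indep (insert e S) ∧ N.Indep (insert e S)
    · obtain ⟨e, heF, heM, heN⟩ := hex
      have heS : e ∉ S := fun h => (Set.disjoint_left.1 hd heF) h
      have hF'fin : (F \ {e}).Finite := hF.sdiff
      have hF'n : (F \ {e}).ncard = n := by
        rw [Set.ncard_sdiff_singleton_of_mem heF, hn]; rfl
      have hd1 : Disjoint (F \ {e}) S := hd.mono_left sdiff_subset
      have hd2 : Disjoint (F \ {e}) (insert e S) := by
        rw [Set.disjoint_insert_right]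
        exact ⟨fun h => h.2 rfl, hd1⟩
      obtain ⟨I1, A, hI1F, hAF, hI1M, hI1N, hv1⟩ := ih (F \ {e}) S hF'fin hF'n hS hd1 hMS hNS
      obtain ⟨I2, B, hI2F, hBF, hI2M, hI2N, hv2⟩ :=
        ih (F \ {e}) (insert e S) hF'fin hF'n (hS.insert e) hd2 heM heN
      by_contra hcon
      push Not at hcon
      -- the two candidate independent sets
      have hI1F' : I1 ⊆ F := hI1F.trans sdiff_subset
      have hJ2F : insert e I2 ⊆ F := insert_subset heF (hI2F.trans sdiff_subset)
      have hJ2eq : insert e I2 ∪ S = I2 ∪ insert e S := by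
        ext x; simp only [mem_union, mem_insert_iff]; tauto
      have heI2 : e ∉ I2 := fun h => (hI2F h).2 rfl
      -- the two candidate sets `U`
      have hU1F : A ∩ B ⊆ F := inter_subset_left.trans (hAF.trans sdiff_subset)
      have hU2F : insert e (A ∪ B) ⊆ F :=
        insert_subset heF (union_subset (hAF.trans sdiff_subset) (hBF.trans sdiff_subset))
      have c11 := hcon I1 (A ∩ B) hI1F' hU1F hI1M hI1N
      have c12 := hcon I1 (insert e (A ∪ B)) hI1F' hU2F hI1M hI1N
      have c21 := hcon (insert e I2) (A ∩ B) hJ2F hU1F (hJ2eq ▸ hI2M) (hJ2eq ▸ hI2N)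
      have c22 := hcon (insert e I2) (insert e (A ∪ B)) hJ2F hU2F (hJ2eq ▸ hI2M) (hJ2eq ▸ hI2N)
      -- submodularity in `M`
      have hsM : M.eRk (A ∩ B ∪ S) + M.eRk (insert e (A ∪ B) ∪ S)
          ≤ M.eRk (A ∪ S) + M.eRk (B ∪ insert e S) := by
        refine le_trans (add_le_add (M.eRk_mono ?_) (M.eRk_mono ?_))
          (M.eRk_inter_add_eRk_union_le (A ∪ S) (B ∪ insert e S))
        · intro x hx
          simp only [mem_union, mem_inter_iff, mem_insert_iff] at hx ⊢
          tauto
        · intro x hx
          simp only [mem_union, mem_insert_iff] at hx ⊢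
          tauto
      -- submodularity in `N`
      have hsN : N.eRk ((F \ insert e (A ∪ B)) ∪ S) + N.eRk ((F \ (A ∩ B)) ∪ S)
          ≤ N.eRk ((F \ {e}) \ A ∪ S) + N.eRk ((F \ {e}) \ B ∪ insert e S) := by
        refine le_trans (add_le_add (N.eRk_mono ?_) (N.eRk_mono ?_))
          (N.eRk_inter_add_eRk_union_le ((F \ {e}) \ A ∪ S) ((F \ {e}) \ B ∪ insert e S))
        · intro x hx
          simp only [mem_union, mem_inter_iff, mem_insert_iff, mem_sdiff, mem_singleton_iff,
            not_or] at hx ⊢
          tauto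
        · intro x hx
          simp only [mem_union, mem_inter_iff, mem_insert_iff, mem_sdiff, mem_singleton_iff,
            not_and] at hx ⊢
          by_cases hxe : x = e
          · right; right; left; exact hxe
          · tauto
      -- move everything to natural numbers
      have finU : ∀ U : Set α, U ⊆ F → (U ∪ S).Finite := fun U hU => (hF.subset hU).union hS
      obtain ⟨a1, ha1⟩ := eRk_fin M (finU _ hU1F)
      obtain ⟨a2, ha2⟩ := eRk_fin M (finU _ hU2F)
      obtain ⟨b1, hb1⟩ := eRk_fin N (finU (F \ (A ∩ B)) sdiff_subset)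
      obtain ⟨b2, hb2⟩ := eRk_fin N (finU (F \ insert e (A ∪ B)) sdiff_subset)
      obtain ⟨x, hx⟩ := eRk_fin M (finU A (hAF.trans sdiff_subset))
      obtain ⟨y, hy⟩ := eRk_fin M (((hF.subset (hBF.trans sdiff_subset))).union (hS.insert e))
      obtain ⟨z, hz⟩ := eRk_fin N (finU ((F \ {e}) \ A) (sdiff_subset.trans sdiff_subset))
      obtain ⟨w, hw⟩ := eRk_fin N
        ((hF.subset (sdiff_subset.trans sdiff_subset : (F \ {e}) \ B ⊆ F)).union (hS.insert e))
      obtain ⟨s, hs⟩ := encard_fin hS
      obtain ⟨k1, hk1⟩ := encard_fin (hF.subset hI1F')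
      obtain ⟨k2, hk2⟩ := encard_fin (hF.subset (hI2F.trans sdiff_subset))
      have hs1 : (insert e S).encard = (s + 1 : ℕ) := by
        rw [encard_insert_of_notMem heS, hs]; rfl
      have hk21 : (insert e I2).encard = (k2 + 1 : ℕ) := by
        rw [encard_insert_of_notMem heI2, hk2]; rfl
      rw [ha1, hb1, hk1, hs] at c11
      rw [ha2, hb2, hk1, hs] at c12
      rw [ha1, hb1, hk21, hs] at c21
      rw [ha2, hb2, hk21, hs] at c22
      rw [ha1, ha2, hx, hy] at hsM
      rw [hb1, hb2, hz, hw] at hsN
      rw [hx, hz, hk1, hs] at hv1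
      rw [hy, hw, hk2, hs1] at hv2
      have c11' : k1 + 2 * s < a1 + b1 := by exact_mod_cast c11
      have c12' : k1 + 2 * s < a2 + b2 := by exact_mod_cast c12
      have c21' : k2 + 1 + 2 * s < a1 + b1 := by exact_mod_cast c21
      have c22' : k2 + 1 + 2 * s < a2 + b2 := by exact_mod_cast c22
      have hsM' : a1 + a2 ≤ x + y := by exact_mod_cast hsM
      have hsN' : b2 + b1 ≤ z + w := by exact_mod_cast hsN
      have hv1' : x + z ≤ k1 + 2 * s := by exact_mod_cast hv1
      have hv2' : y + w ≤ k2 + 2 * (s + 1) := by exact_mod_cast hv2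
      omega
    · push Not at hex
      refine ⟨∅, {e ∈ F | ¬ M.Indep (insert e S)}, empty_subset _, fun e he => he.1,
        by simpa using hMS, by simpa using hNS, ?_⟩
      have h1 : M.eRk ({e ∈ F | ¬ M.Indep (insert e S)} ∪ S) ≤ S.encard :=
        eRk_union_le_of_forall_not_indep M hMS (fun e he => he.2)
      have h2 : N.eRk ((F \ {e ∈ F | ¬ M.Indep (insert e S)}) ∪ S) ≤ S.encard := by
        apply eRk_union_le_of_forall_not_indep N hNS
        rintro e ⟨heF, hne⟩
        have hM : M.Indep (insert e S) := by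
          by_contra h
          exact hne ⟨heF, h⟩
        exact hex e heF hM
      calc M.eRk ({e ∈ F | ¬ M.Indep (insert e S)} ∪ S)
            + N.eRk ((F \ {e ∈ F | ¬ M.Indep (insert e S)}) ∪ S)
          ≤ S.encard + S.encard := add_le_add h1 h2
        _ = (∅ : Set α).encard + 2 * S.encard := by simp [two_mul]

end Vale.Agent.Lib.P068
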