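import Vale.Agent.Lib.P068.Dual

/-!
# From intersection to packing/covering, for pairs of matroids

If the pair `(M, N✶)` satisfies intersection, then the pair `(M, N)` has a packing/covering
partition (one direction of the equivalence of Bowler and Carmesin).  Together with the
finite-rank and finite-corank cases of intersection this gives packing/covering partitions for
every pair of matroids one of which has finite rank or finite corank.
-/

namespace Vale.Agent.Lib.P068

open Set Matroid

variable {α : Type*}

/-- **From intersection to packing/covering.** -/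
theorem packCover_of_intersection_dual (M N : Matroid α) (hE : M.E = N.E)
    (h : ∃ JM JN : Set α, Disjoint JM JN ∧ M.Indep (JM ∪ JN) ∧ N✶.Indep (JM ∪ JN) ∧
      M.closure JM ∪ N✶.closure JN = M.E) :
    ∃ P C SM SN IM IN : Set α, P ∪ C = M.E ∧ Disjoint P C ∧
      SM ⊆ P ∧ SN ⊆ P ∧ Disjoint SM SN ∧
      (M ↾ P).closure SM = P ∧ (N ↾ P).closure SN = P ∧
      (M ／ P).Indep IM ∧ (N ／ P).Indep IN ∧ IM ∪ IN = C := by
  obtain ⟨JM, JN, hdisj, hJM, hJN, hcov⟩ := h
  have hJMi : M.Indep JM := hJM.subset subset_union_left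
  have hJNi : N✶.Indep JN := hJN.subset subset_union_right
  have hPE : M.closure JM ⊆ M.E := M.closure_subset_ground JM
  have hPN : M.closure JM ⊆ N.E := hE ▸ hPE
  have hJMP : JM ⊆ M.closure JM := M.subset_closure JM hJMi.subset_ground
  -- `JN` is disjoint from `P`
  have hJNP : Disjoint (M.closure JM) JN := by
    rw [disjoint_left]
    intro y hyP hyN
    have hyJM : y ∉ JM := fun hy => hdisj.le_bot ⟨hy, hyN⟩
    have hind : M.Indep (insert y JM) :=
      hJM.subset (insert_subset (Or.inr hyN) subset_union_left)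
    exact ((hJMi.notMem_closure_iff_of_notMem hyJM (hJM.subset_ground (Or.inr hyN))).2 hind) hyP
  have hJNC : JN ⊆ M.E \ M.closure JM := fun y hy =>
    ⟨hJM.subset_ground (Or.inr hy), fun hyP => hJNP.le_bot ⟨hyP, hy⟩⟩
  have hCcl : M.E \ M.closure JM ⊆ N✶.closure JN := by
    intro x hx
    have hx' : x ∈ M.closure JM ∪ N✶.closure JN := by rw [hcov]; exact hx.1
    exact hx'.resolve_left hx.2
  have hBM : M.IsBasis JM (M.closure JM) := hJMi.isBasis_closure
  have hBN : N✶.IsBasis JN (M.E \ M.closure JM) :=
    hJNi.isBasis_of_subset_of_subset_closure hJNC hCcl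
  have hCeq : N.E \ M.closure JM = M.E \ M.closure JM := by rw [hE]
  refine ⟨M.closure JM, M.E \ M.closure JM, JM, M.closure JM \ JM, JN,
    (M.E \ M.closure JM) \ JN, union_sdiff_cancel hPE, disjoint_sdiff_right, hJMP,
    sdiff_subset, disjoint_sdiff_right, ?_, ?_, ?_, ?_, union_sdiff_cancel hJNC⟩
  · rw [restrict_closure_eq M hJMP hPE, inter_self]
  · -- `JM` is coindependent in `N ↾ P`
    have h1 : (N✶ ／ (M.E \ M.closure JM)).Indep JM := by
      rw [hBN.contract_indep_iff]
      exact ⟨hJN, disjoint_sdiff_left.mono_right hJMP⟩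
    have h2 : N ＼ (M.E \ M.closure JM) = N ↾ M.closure JM := by
      rw [← hCeq, delete_compl hPN]
    have h3 : (N ↾ M.closure JM).Coindep JM := by
      rw [coindep_def, ← h2, dual_delete]
      exact h1
    have h4 := h3.compl_spanning
    rw [restrict_ground_eq] at h4
    have h5 := h4.closure_eq
    rw [restrict_ground_eq] at h5
    exact h5
  · rw [hBM.contract_indep_iff]
    exact ⟨by rw [union_comm]; exact hJM, hJNP⟩
  · -- `JN` spans `C` in `N✶ ↾ C`, so `C \ JN` is independent in `N ／ P`
    have h1 : N✶ ＼ M.closure JM = N✶ ↾ (M.E \ M.closure JM) := by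
      rw [delete_eq_restrict, dual_ground, hCeq]
    have hCN : M.E \ M.closure JM ⊆ N✶.E := by
      rw [dual_ground, ← hE]; exact sdiff_subset
    have h2 : (N✶ ↾ (M.E \ M.closure JM)).Spanning JN := by
      rw [spanning_iff_closure_eq (show JN ⊆ (N✶ ↾ (M.E \ M.closure JM)).E from hJNC),
        restrict_closure_eq N✶ hJNC hCN, restrict_ground_eq]
      exact inter_eq_self_of_subset_right hCcl
    have h3 := h2.compl_coindep
    rw [restrict_ground_eq, coindep_def, ← h1, dual_delete_dual] at h3
    exact h3

/-- Packing/covering partitions for pairs one of whose matroids has finite rank or finite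
corank. -/
theorem packCover_of_rankFinite (M N : Matroid α) (hE : M.E = N.E)
    (h : M.RankFinite ∨ N.RankFinite ∨ M✶.RankFinite ∨ N✶.RankFinite) :
    ∃ P C SM SN IM IN : Set α, P ∪ C = M.E ∧ Disjoint P C ∧
      SM ⊆ P ∧ SN ⊆ P ∧ Disjoint SM SN ∧
      (M ↾ P).closure SM = P ∧ (N ↾ P).closure SN = P ∧
      (M ／ P).Indep IM ∧ (N ／ P).Indep IN ∧ IM ∪ IN = C := by
  have hE' : M.E = N✶.E := by rw [dual_ground]; exact hE
  apply packCover_of_intersection_dual M N hE
  rcases h with h | h | h | h
  · exact intersection_of_rankFinite M N✶ hE' (Or.inl h)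
  · exact intersection_of_dual_rankFinite M N✶ hE' (Or.inr (by rw [dual_dual]; exact h))
  · exact intersection_of_dual_rankFinite M N✶ hE' (Or.inl h)
  · exact intersection_of_rankFinite M N✶ hE' (Or.inr h)

end Vale.Agent.Lib.P068
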